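import Vale.Agent.P121.Main

open MeasureTheory
open scoped ENNReal

/-- Disproof of Q1: an absolutely continuous probability measure on `ℝ³`, with a smooth compactly
supported density and finite Kantorovich value, that admits no optimal Monge plan. -/
theorem Vale.Agent.Results.P121.A_full.result :
    ∃ (μ : Measure (EuclideanSpace ℝ (Fin 3))) (ρ : EuclideanSpace ℝ (Fin 3) → ℝ),
      IsProbabilityMeasure μ ∧ μ ≪ volume ∧
      ContDiff ℝ (⊤ : ℕ∞) ρ ∧ HasCompactSupport ρ ∧ (∀ x, 0 ≤ ρ x) ∧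
      μ = volume.withDensity (fun x => ENNReal.ofReal (ρ x)) ∧
      Vale.Agent.P121.kantorovichValue μ < ∞ ∧
      ¬ Vale.Agent.P121.HasOptimalMongePlan μ := by
  obtain ⟨ρ, h1, h2, h3, h4, h5, h6, h7⟩ := Vale.Agent.P121.counterexample (d := 3) (by norm_num)
  exact ⟨_, ρ, h4, h5, h1, h2, h3, rfl, h6, h7⟩
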