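import Vale.Agent.P121.Main

open MeasureTheory
open scoped ENNReal

/-- The counterexample in every dimension `d ≥ 2`, in particular for `d = 3`. -/
theorem Vale.Agent.Results.P121.B_alldim.result (d : ℕ) (hd : 2 ≤ d) :
    ∃ (μ : Measure (EuclideanSpace ℝ (Fin d))) (ρ : EuclideanSpace ℝ (Fin d) → ℝ),
      IsProbabilityMeasure μ ∧ μ ≪ volume ∧
      ContDiff ℝ (⊤ : ℕ∞) ρ ∧ HasCompactSupport ρ ∧ (∀ x, 0 ≤ ρ x) ∧
      μ = volume.withDensity (fun x => ENNReal.ofReal (ρ x)) ∧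
      Vale.Agent.P121.kantorovichValue μ < ∞ ∧
      ¬ Vale.Agent.P121.HasOptimalMongePlan μ := by
  obtain ⟨ρ, h1, h2, h3, h4, h5, h6, h7⟩ := Vale.Agent.P121.counterexample hd
  exact ⟨_, ρ, h4, h5, h1, h2, h3, rfl, h6, h7⟩
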